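import Vale.Agent.Lib.P154Q4.I025.Data

namespace Vale.Agent.Lib.P154Q4.I025

/-- One pair of tetrahedra. -/
def l10 : Leaf := ⟨A4, B13, [21, 21, 25, 25, 12, 12, 11, 11, 30, 7, 30, 7, 18, 31, 18, 31, 29, 29, 26, 26, 27, 27, 20, 20]⟩

theorem l10_g : Good g A4 B13 :=
  good_leaf (l := l10) g_ok tab_ok (by decide +kernel) (by decide +kernel) (by decide +kernel)

end Vale.Agent.Lib.P154Q4.I025
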