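import Vale.Agent.Lib.P154Q4.I025.Data

namespace Vale.Agent.Lib.P154Q4.I025

/-- One pair of tetrahedra. -/
def l100 : Leaf := ⟨A23, B67, [7, 7, 7, 41, 7, 41, 7, 7, 7, 15, 7, 15, 14, 18, 14, 18, 19, 19, 14, 19, 14, 19, 19, 19]⟩

theorem l100_g : Good g A23 B67 :=
  good_leaf (l := l100) g_ok tab_ok (by decide +kernel) (by decide +kernel) (by decide +kernel)

end Vale.Agent.Lib.P154Q4.I025
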