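import Vale.Agent.Lib.P154Q4.I025.Data

namespace Vale.Agent.Lib.P154Q4.I025

/-- One pair of tetrahedra. -/
def l101 : Leaf := ⟨A26, B1, [49, 49, 49, 50, 49, 50, 15, 15, 18, 2, 18, 2, 14, 14, 18, 3, 18, 3, 14, 14, 18, 3, 18, 3]⟩

theorem l101_g : Good g A26 B1 :=
  good_leaf (l := l101) g_ok tab_ok (by decide +kernel) (by decide +kernel) (by decide +kernel)

end Vale.Agent.Lib.P154Q4.I025
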