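import Vale.Agent.Lib.P154Q4.I025.Data

namespace Vale.Agent.Lib.P154Q4.I025

/-- One pair of tetrahedra. -/
def l103 : Leaf := ⟨A29, B69, [32, 32, 21, 21, 21, 21, 11, 11, 3, 3, 3, 3, 12, 12, 3, 4, 4, 4, 12, 12, 3, 4, 4, 4]⟩

theorem l103_g : Good g A29 B69 :=
  good_leaf (l := l103) g_ok tab_ok (by decide +kernel) (by decide +kernel) (by decide +kernel)

end Vale.Agent.Lib.P154Q4.I025
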