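import Vale.Agent.Lib.P154Q4.I025.Data

namespace Vale.Agent.Lib.P154Q4.I025

/-- One pair of tetrahedra. -/
def l106 : Leaf := ⟨A33, B70, [12, 12, 12, 12, 30, 30, 12, 12, 19, 19, 42, 42, 30, 30, 19, 19, 2, 2, 7, 7, 42, 42, 2, 2]⟩

theorem l106_g : Good g A33 B70 :=
  good_leaf (l := l106) g_ok tab_ok (by decide +kernel) (by decide +kernel) (by decide +kernel)

end Vale.Agent.Lib.P154Q4.I025
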