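import Vale.Agent.Lib.P154Q4.I025.Data

namespace Vale.Agent.Lib.P154Q4.I025

/-- One pair of tetrahedra. -/
def l107 : Leaf := ⟨A34, B24, [33, 33, 33, 33, 33, 33, 7, 7, 18, 2, 18, 2, 7, 7, 18, 2, 18, 2, 7, 7, 18, 2, 18, 2]⟩

theorem l107_g : Good g A34 B24 :=
  good_leaf (l := l107) g_ok tab_ok (by decide +kernel) (by decide +kernel) (by decide +kernel)

end Vale.Agent.Lib.P154Q4.I025
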