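import Vale.Agent.Lib.P154Q4.I025.Data

namespace Vale.Agent.Lib.P154Q4.I025

/-- One pair of tetrahedra. -/
def l110 : Leaf := ⟨A36, B22, [12, 12, 30, 45, 45, 45, 34, 34, 15, 15, 51, 51, 35, 35, 14, 14, 2, 2, 15, 15, 18, 19, 2, 2]⟩

theorem l110_g : Good g A36 B22 :=
  good_leaf (l := l110) g_ok tab_ok (by decide +kernel) (by decide +kernel) (by decide +kernel)

end Vale.Agent.Lib.P154Q4.I025
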