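import Vale.Agent.Lib.P154Q4.I025.Data

namespace Vale.Agent.Lib.P154Q4.I025

/-- One pair of tetrahedra. -/
def l111 : Leaf := ⟨A36, B68, [59, 59, 60, 61, 61, 61, 62, 62, 63, 63, 63, 63, 63, 63, 64, 64, 65, 65, 63, 63, 64, 66, 65, 65]⟩

theorem l111_g : Good g A36 B68 :=
  good_leaf (l := l111) g_ok tab_ok (by decide +kernel) (by decide +kernel) (by decide +kernel)

end Vale.Agent.Lib.P154Q4.I025
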