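import Vale.Agent.Lib.P154Q4.I025.Data

namespace Vale.Agent.Lib.P154Q4.I025

/-- One pair of tetrahedra. -/
def l12 : Leaf := ⟨A2, B15, [16, 17, 16, 17, 17, 17, 15, 15, 14, 14, 14, 14, 18, 18, 19, 19, 19, 19, 2, 2, 3, 4, 3, 4]⟩

theorem l12_g : Good g A2 B15 :=
  good_leaf (l := l12) g_ok tab_ok (by decide +kernel) (by decide +kernel) (by decide +kernel)

end Vale.Agent.Lib.P154Q4.I025
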