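import Vale.Agent.Lib.P154Q4.I025.Data

namespace Vale.Agent.Lib.P154Q4.I025

/-- One pair of tetrahedra. -/
def l16 : Leaf := ⟨A7, B22, [22, 22, 22, 22, 33, 33, 34, 34, 35, 35, 35, 35, 18, 18, 18, 18, 29, 29, 19, 19, 36, 26, 3, 4]⟩

theorem l16_g : Good g A7 B22 :=
  good_leaf (l := l16) g_ok tab_ok (by decide +kernel) (by decide +kernel) (by decide +kernel)

end Vale.Agent.Lib.P154Q4.I025
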