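import Vale.Agent.Lib.P154Q4.I025.Data

namespace Vale.Agent.Lib.P154Q4.I025

/-- One pair of tetrahedra. -/
def l18 : Leaf := ⟨A9, B1, [9, 9, 9, 9, 10, 10, 11, 11, 3, 4, 3, 4, 12, 12, 3, 4, 4, 4, 12, 12, 4, 4, 4, 4]⟩

theorem l18_g : Good g A9 B1 :=
  good_leaf (l := l18) g_ok tab_ok (by decide +kernel) (by decide +kernel) (by decide +kernel)

end Vale.Agent.Lib.P154Q4.I025
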