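import Vale.Agent.Lib.P154Q4.I025.Data

namespace Vale.Agent.Lib.P154Q4.I025

/-- One pair of tetrahedra. -/
def l19 : Leaf := ⟨A11, B1, [5, 5, 5, 5, 6, 6, 8, 8, 2, 4, 2, 4, 13, 14, 2, 4, 3, 4, 14, 14, 3, 4, 3, 4]⟩

theorem l19_g : Good g A11 B1 :=
  good_leaf (l := l19) g_ok tab_ok (by decide +kernel) (by decide +kernel) (by decide +kernel)

end Vale.Agent.Lib.P154Q4.I025
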