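import Vale.Agent.Lib.P154Q4.I025.Data

namespace Vale.Agent.Lib.P154Q4.I025

/-- One pair of tetrahedra. -/
def l21 : Leaf := ⟨A8, B6, [37, 37, 21, 22, 21, 22, 11, 11, 8, 15, 15, 15, 15, 15, 38, 28, 4, 20, 39, 39, 36, 26, 20, 20]⟩

theorem l21_g : Good g A8 B6 :=
  good_leaf (l := l21) g_ok tab_ok (by decide +kernel) (by decide +kernel) (by decide +kernel)

end Vale.Agent.Lib.P154Q4.I025
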