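import Vale.Agent.Lib.P154Q4.I025.Data

namespace Vale.Agent.Lib.P154Q4.I025

/-- One pair of tetrahedra. -/
def l22 : Leaf := ⟨A9, B6, [40, 40, 30, 30, 30, 30, 25, 25, 14, 14, 18, 18, 41, 41, 19, 19, 4, 20, 8, 8, 19, 19, 20, 20]⟩

theorem l22_g : Good g A9 B6 :=
  good_leaf (l := l22) g_ok tab_ok (by decide +kernel) (by decide +kernel) (by decide +kernel)

end Vale.Agent.Lib.P154Q4.I025
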