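import Vale.Agent.Lib.P154Q4.I025.Data

namespace Vale.Agent.Lib.P154Q4.I025

/-- One pair of tetrahedra. -/
def l23 : Leaf := ⟨A11, B6, [37, 37, 21, 22, 21, 22, 12, 12, 41, 15, 35, 15, 14, 18, 19, 26, 3, 20, 39, 19, 36, 26, 20, 20]⟩

theorem l23_g : Good g A11 B6 :=
  good_leaf (l := l23) g_ok tab_ok (by decide +kernel) (by decide +kernel) (by decide +kernel)

end Vale.Agent.Lib.P154Q4.I025
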