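import Vale.Agent.Lib.P154Q4.I025.Data

namespace Vale.Agent.Lib.P154Q4.I025

/-- One pair of tetrahedra. -/
def l25 : Leaf := ⟨A13, B8, [9, 9, 21, 21, 21, 21, 34, 34, 35, 15, 35, 15, 14, 18, 19, 36, 3, 3, 39, 19, 36, 26, 3, 4]⟩

theorem l25_g : Good g A13 B8 :=
  good_leaf (l := l25) g_ok tab_ok (by decide +kernel) (by decide +kernel) (by decide +kernel)

end Vale.Agent.Lib.P154Q4.I025
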