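import Vale.Agent.Lib.P154Q4.I025.Data

namespace Vale.Agent.Lib.P154Q4.I025

/-- One pair of tetrahedra. -/
def l26 : Leaf := ⟨A12, B12, [25, 11, 25, 11, 34, 34, 30, 30, 13, 14, 18, 19, 41, 35, 14, 14, 42, 42, 18, 18, 26, 26, 26, 26]⟩

theorem l26_g : Good g A12 B12 :=
  good_leaf (l := l26) g_ok tab_ok (by decide +kernel) (by decide +kernel) (by decide +kernel)

end Vale.Agent.Lib.P154Q4.I025
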