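import Vale.Agent.Lib.P154Q4.I025.Data

namespace Vale.Agent.Lib.P154Q4.I025

/-- One pair of tetrahedra. -/
def l27 : Leaf := ⟨A12, B13, [25, 11, 30, 30, 41, 41, 25, 11, 41, 8, 41, 8, 14, 18, 14, 18, 2, 2, 18, 18, 19, 19, 4, 4]⟩

theorem l27_g : Good g A12 B13 :=
  good_leaf (l := l27) g_ok tab_ok (by decide +kernel) (by decide +kernel) (by decide +kernel)

end Vale.Agent.Lib.P154Q4.I025
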