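import Vale.Agent.Lib.P154Q4.I025.Data

namespace Vale.Agent.Lib.P154Q4.I025

/-- One pair of tetrahedra. -/
def l28 : Leaf := ⟨A8, B21, [25, 25, 25, 25, 12, 12, 7, 7, 14, 14, 39, 39, 8, 8, 14, 14, 19, 19, 18, 18, 26, 26, 26, 26]⟩

theorem l28_g : Good g A8 B21 :=
  good_leaf (l := l28) g_ok tab_ok (by decide +kernel) (by decide +kernel) (by decide +kernel)

end Vale.Agent.Lib.P154Q4.I025
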