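import Vale.Agent.Lib.P154Q4.I025.Data

namespace Vale.Agent.Lib.P154Q4.I025

/-- One pair of tetrahedra. -/
def l29 : Leaf := ⟨A9, B21, [43, 43, 43, 43, 41, 41, 44, 44, 14, 14, 19, 38, 7, 7, 14, 14, 38, 38, 15, 15, 28, 28, 28, 28]⟩

theorem l29_g : Good g A9 B21 :=
  good_leaf (l := l29) g_ok tab_ok (by decide +kernel) (by decide +kernel) (by decide +kernel)

end Vale.Agent.Lib.P154Q4.I025
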