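import Vale.Agent.Lib.P154Q4.I025.Data

namespace Vale.Agent.Lib.P154Q4.I025

/-- One pair of tetrahedra. -/
def l31 : Leaf := ⟨A13, B22, [11, 11, 11, 11, 12, 12, 34, 34, 35, 15, 35, 15, 14, 18, 14, 18, 2, 2, 19, 19, 36, 26, 3, 4]⟩

theorem l31_g : Good g A13 B22 :=
  good_leaf (l := l31) g_ok tab_ok (by decide +kernel) (by decide +kernel) (by decide +kernel)

end Vale.Agent.Lib.P154Q4.I025
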