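import Vale.Agent.Lib.P154Q4.I025.Data

namespace Vale.Agent.Lib.P154Q4.I025

/-- One pair of tetrahedra. -/
def l33 : Leaf := ⟨A17, B24, [21, 22, 21, 33, 22, 33, 23, 23, 18, 4, 18, 4, 24, 13, 18, 4, 18, 20, 24, 13, 18, 20, 18, 20]⟩

theorem l33_g : Good g A17 B24 :=
  good_leaf (l := l33) g_ok tab_ok (by decide +kernel) (by decide +kernel) (by decide +kernel)

end Vale.Agent.Lib.P154Q4.I025
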