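import Vale.Agent.Lib.P154Q4.I025.Data

namespace Vale.Agent.Lib.P154Q4.I025

/-- One pair of tetrahedra. -/
def l34 : Leaf := ⟨A19, B24, [21, 22, 21, 33, 22, 33, 11, 11, 29, 4, 29, 4, 12, 12, 29, 4, 29, 20, 12, 12, 29, 20, 29, 20]⟩

theorem l34_g : Good g A19 B24 :=
  good_leaf (l := l34) g_ok tab_ok (by decide +kernel) (by decide +kernel) (by decide +kernel)

end Vale.Agent.Lib.P154Q4.I025
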