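import Vale.Agent.Lib.P154Q4.I025.Data

namespace Vale.Agent.Lib.P154Q4.I025

/-- One pair of tetrahedra. -/
def l35 : Leaf := ⟨A20, B25, [22, 22, 22, 22, 22, 22, 45, 45, 18, 28, 18, 28, 41, 41, 18, 28, 31, 26, 35, 35, 18, 28, 31, 26]⟩

theorem l35_g : Good g A20 B25 :=
  good_leaf (l := l35) g_ok tab_ok (by decide +kernel) (by decide +kernel) (by decide +kernel)

end Vale.Agent.Lib.P154Q4.I025
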