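import Vale.Agent.Lib.P154Q4.I025.Data

namespace Vale.Agent.Lib.P154Q4.I025

/-- One pair of tetrahedra. -/
def l37 : Leaf := ⟨A17, B26, [11, 11, 47, 30, 47, 30, 23, 23, 14, 28, 14, 28, 24, 13, 14, 28, 19, 26, 24, 48, 14, 28, 19, 26]⟩

theorem l37_g : Good g A17 B26 :=
  good_leaf (l := l37) g_ok tab_ok (by decide +kernel) (by decide +kernel) (by decide +kernel)

end Vale.Agent.Lib.P154Q4.I025
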