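import Vale.Agent.Lib.P154Q4.I025.Data

namespace Vale.Agent.Lib.P154Q4.I025

/-- One pair of tetrahedra. -/
def l38 : Leaf := ⟨A19, B26, [11, 11, 47, 30, 47, 30, 11, 11, 18, 28, 18, 28, 7, 7, 18, 28, 2, 4, 7, 7, 18, 28, 2, 4]⟩

theorem l38_g : Good g A19 B26 :=
  good_leaf (l := l38) g_ok tab_ok (by decide +kernel) (by decide +kernel) (by decide +kernel)

end Vale.Agent.Lib.P154Q4.I025
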