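import Vale.Agent.Lib.P154Q4.I025.Data

namespace Vale.Agent.Lib.P154Q4.I025

/-- One pair of tetrahedra. -/
def l39 : Leaf := ⟨A21, B1, [17, 17, 17, 17, 17, 17, 15, 15, 18, 2, 18, 2, 14, 14, 19, 3, 19, 3, 14, 14, 19, 4, 19, 4]⟩

theorem l39_g : Good g A21 B1 :=
  good_leaf (l := l39) g_ok tab_ok (by decide +kernel) (by decide +kernel) (by decide +kernel)

end Vale.Agent.Lib.P154Q4.I025
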