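import Vale.Agent.Lib.P154Q4.I025.Data

namespace Vale.Agent.Lib.P154Q4.I025

/-- One pair of tetrahedra. -/
def l4 : Leaf := ⟨A1, B7, [5, 5, 5, 6, 5, 6, 15, 15, 14, 14, 14, 14, 2, 2, 2, 3, 3, 3, 2, 2, 3, 4, 3, 4]⟩

theorem l4_g : Good g A1 B7 :=
  good_leaf (l := l4) g_ok tab_ok (by decide +kernel) (by decide +kernel) (by decide +kernel)

end Vale.Agent.Lib.P154Q4.I025
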