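import Vale.Agent.Lib.P154Q4.I025.Data

namespace Vale.Agent.Lib.P154Q4.I025

/-- One pair of tetrahedra. -/
def l40 : Leaf := ⟨A22, B1, [49, 49, 49, 50, 49, 50, 15, 15, 18, 2, 18, 2, 14, 14, 18, 3, 18, 3, 14, 14, 18, 4, 18, 4]⟩

theorem l40_g : Good g A22 B1 :=
  good_leaf (l := l40) g_ok tab_ok (by decide +kernel) (by decide +kernel) (by decide +kernel)

end Vale.Agent.Lib.P154Q4.I025
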