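import Vale.Agent.Lib.P154Q4.I025.Data

namespace Vale.Agent.Lib.P154Q4.I025

/-- One pair of tetrahedra. -/
def l41 : Leaf := ⟨A18, B8, [11, 11, 11, 34, 11, 34, 30, 30, 41, 18, 35, 18, 13, 18, 14, 26, 42, 26, 14, 19, 14, 26, 42, 26]⟩

theorem l41_g : Good g A18 B8 :=
  good_leaf (l := l41) g_ok tab_ok (by decide +kernel) (by decide +kernel) (by decide +kernel)

end Vale.Agent.Lib.P154Q4.I025
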