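import Vale.Agent.Lib.P154Q4.I025.Data

namespace Vale.Agent.Lib.P154Q4.I025

/-- One pair of tetrahedra. -/
def l42 : Leaf := ⟨A19, B8, [11, 11, 30, 41, 30, 41, 11, 11, 14, 18, 18, 18, 41, 41, 14, 19, 2, 4, 8, 8, 18, 19, 2, 4]⟩

theorem l42_g : Good g A19 B8 :=
  good_leaf (l := l42) g_ok tab_ok (by decide +kernel) (by decide +kernel) (by decide +kernel)

end Vale.Agent.Lib.P154Q4.I025
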