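import Vale.Agent.Lib.P154Q4.I025.Data

namespace Vale.Agent.Lib.P154Q4.I025

/-- One pair of tetrahedra. -/
def l43 : Leaf := ⟨A23, B8, [11, 11, 11, 34, 11, 34, 41, 41, 41, 51, 35, 51, 14, 18, 14, 36, 19, 36, 14, 19, 14, 26, 19, 26]⟩

theorem l43_g : Good g A23 B8 :=
  good_leaf (l := l43) g_ok tab_ok (by decide +kernel) (by decide +kernel) (by decide +kernel)

end Vale.Agent.Lib.P154Q4.I025
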