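import Vale.Agent.Lib.P154Q4.I025.Data

namespace Vale.Agent.Lib.P154Q4.I025

/-- One pair of tetrahedra. -/
def l44 : Leaf := ⟨A16, B22, [25, 30, 25, 30, 30, 30, 30, 30, 41, 14, 35, 14, 13, 18, 13, 18, 42, 42, 39, 19, 39, 28, 42, 26]⟩

theorem l44_g : Good g A16 B22 :=
  good_leaf (l := l44) g_ok tab_ok (by decide +kernel) (by decide +kernel) (by decide +kernel)

end Vale.Agent.Lib.P154Q4.I025
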