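import Vale.Agent.Lib.P154Q4.I025.Data

namespace Vale.Agent.Lib.P154Q4.I025

/-- One pair of tetrahedra. -/
def l45 : Leaf := ⟨A17, B22, [47, 30, 47, 41, 7, 41, 30, 30, 8, 14, 15, 14, 13, 14, 13, 14, 42, 42, 14, 39, 14, 38, 42, 36]⟩

theorem l45_g : Good g A17 B22 :=
  good_leaf (l := l45) g_ok tab_ok (by decide +kernel) (by decide +kernel) (by decide +kernel)

end Vale.Agent.Lib.P154Q4.I025
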