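import Vale.Agent.Lib.P154Q4.I025.Data

namespace Vale.Agent.Lib.P154Q4.I025

/-- One pair of tetrahedra. -/
def l48 : Leaf := ⟨A22, B22, [47, 30, 47, 45, 30, 45, 41, 41, 8, 15, 15, 15, 14, 14, 14, 14, 19, 19, 14, 39, 14, 38, 19, 38]⟩

theorem l48_g : Good g A22 B22 :=
  good_leaf (l := l48) g_ok tab_ok (by decide +kernel) (by decide +kernel) (by decide +kernel)

end Vale.Agent.Lib.P154Q4.I025
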