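import Vale.Agent.Lib.P154Q4.I025.Data

namespace Vale.Agent.Lib.P154Q4.I025

/-- One pair of tetrahedra. -/
def l5 : Leaf := ⟨A2, B10, [16, 17, 16, 17, 17, 17, 8, 8, 13, 14, 14, 14, 18, 18, 19, 19, 19, 19, 4, 4, 4, 20, 20, 20]⟩

theorem l5_g : Good g A2 B10 :=
  good_leaf (l := l5) g_ok tab_ok (by decide +kernel) (by decide +kernel) (by decide +kernel)

end Vale.Agent.Lib.P154Q4.I025
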