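import Vale.Agent.Lib.P154Q4.I025.Data

namespace Vale.Agent.Lib.P154Q4.I025

/-- One pair of tetrahedra. -/
def l52 : Leaf := ⟨A2, B31, [43, 43, 43, 43, 43, 43, 8, 8, 13, 13, 13, 13, 48, 48, 48, 48, 48, 48, 42, 42, 36, 36, 36, 36]⟩

theorem l52_g : Good g A2 B31 :=
  good_leaf (l := l52) g_ok tab_ok (by decide +kernel) (by decide +kernel) (by decide +kernel)

end Vale.Agent.Lib.P154Q4.I025
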