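import Vale.Agent.Lib.P154Q4.I025.Data

namespace Vale.Agent.Lib.P154Q4.I025

/-- One pair of tetrahedra. -/
def l55 : Leaf := ⟨A2, B37, [52, 44, 52, 44, 7, 7, 53, 53, 24, 24, 24, 24, 13, 13, 13, 13, 13, 13, 3, 3, 3, 4, 4, 4]⟩

theorem l55_g : Good g A2 B37 :=
  good_leaf (l := l55) g_ok tab_ok (by decide +kernel) (by decide +kernel) (by decide +kernel)

end Vale.Agent.Lib.P154Q4.I025
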