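import Vale.Agent.Lib.P154Q4.I025.Data

namespace Vale.Agent.Lib.P154Q4.I025

/-- One pair of tetrahedra. -/
def l59 : Leaf := ⟨A3, B44, [44, 44, 44, 44, 44, 44, 56, 56, 56, 56, 56, 56, 48, 48, 48, 48, 48, 48, 57, 57, 57, 57, 57, 57]⟩

theorem l59_g : Good g A3 B44 :=
  good_leaf (l := l59) g_ok tab_ok (by decide +kernel) (by decide +kernel) (by decide +kernel)

end Vale.Agent.Lib.P154Q4.I025
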