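import Vale.Agent.Lib.P154Q4.I025.Data

namespace Vale.Agent.Lib.P154Q4.I025

/-- One pair of tetrahedra. -/
def l60 : Leaf := ⟨A3, B46, [7, 7, 7, 7, 7, 7, 56, 56, 56, 56, 56, 56, 48, 48, 48, 48, 48, 48, 39, 39, 39, 39, 39, 39]⟩

theorem l60_g : Good g A3 B46 :=
  good_leaf (l := l60) g_ok tab_ok (by decide +kernel) (by decide +kernel) (by decide +kernel)

end Vale.Agent.Lib.P154Q4.I025
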