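import Vale.Agent.Lib.P154Q4.I025.Data

namespace Vale.Agent.Lib.P154Q4.I025

/-- One pair of tetrahedra. -/
def l68 : Leaf := ⟨A5, B58, [32, 32, 21, 21, 21, 21, 44, 44, 7, 7, 7, 7, 19, 19, 38, 38, 38, 38, 3, 3, 4, 4, 4, 4]⟩

theorem l68_g : Good g A5 B58 :=
  good_leaf (l := l68) g_ok tab_ok (by decide +kernel) (by decide +kernel) (by decide +kernel)

end Vale.Agent.Lib.P154Q4.I025
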