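import Vale.Agent.Lib.P154Q4.I025.Data

namespace Vale.Agent.Lib.P154Q4.I025

/-- One pair of tetrahedra. -/
def l7 : Leaf := ⟨A4, B11, [21, 21, 25, 25, 12, 12, 23, 23, 24, 24, 13, 13, 14, 14, 18, 18, 18, 18, 26, 26, 27, 27, 27, 27]⟩

theorem l7_g : Good g A4 B11 :=
  good_leaf (l := l7) g_ok tab_ok (by decide +kernel) (by decide +kernel) (by decide +kernel)

end Vale.Agent.Lib.P154Q4.I025
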