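import Vale.Agent.Lib.P154Q4.I025.Data

namespace Vale.Agent.Lib.P154Q4.I025

/-- One pair of tetrahedra. -/
def l73 : Leaf := ⟨A4, B61, [52, 52, 58, 58, 23, 23, 44, 44, 23, 23, 23, 23, 13, 13, 13, 13, 14, 14, 36, 36, 26, 26, 26, 26]⟩

theorem l73_g : Good g A4 B61 :=
  good_leaf (l := l73) g_ok tab_ok (by decide +kernel) (by decide +kernel) (by decide +kernel)

end Vale.Agent.Lib.P154Q4.I025
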