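import Vale.Agent.Lib.P154Q4.I025.Data

namespace Vale.Agent.Lib.P154Q4.I025

/-- One pair of tetrahedra. -/
def l75 : Leaf := ⟨A4, B63, [23, 23, 23, 23, 23, 23, 24, 24, 24, 24, 24, 24, 48, 48, 48, 48, 48, 48, 39, 39, 39, 39, 39, 39]⟩

theorem l75_g : Good g A4 B63 :=
  good_leaf (l := l75) g_ok tab_ok (by decide +kernel) (by decide +kernel) (by decide +kernel)

end Vale.Agent.Lib.P154Q4.I025
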