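import Vale.Agent.Lib.P154Q4.I025.Data

namespace Vale.Agent.Lib.P154Q4.I025

/-- One pair of tetrahedra. -/
def l76 : Leaf := ⟨A6, B51, [25, 25, 25, 43, 25, 43, 11, 11, 30, 7, 30, 7, 19, 36, 19, 36, 4, 4, 38, 36, 38, 26, 4, 4]⟩

theorem l76_g : Good g A6 B51 :=
  good_leaf (l := l76) g_ok tab_ok (by decide +kernel) (by decide +kernel) (by decide +kernel)

end Vale.Agent.Lib.P154Q4.I025
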