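import Vale.Agent.Lib.P154Q4.I025.Data

namespace Vale.Agent.Lib.P154Q4.I025

/-- One pair of tetrahedra. -/
def l78 : Leaf := ⟨A6, B60, [25, 11, 25, 47, 12, 30, 44, 44, 23, 23, 23, 23, 14, 14, 14, 18, 18, 18, 38, 36, 38, 26, 26, 26]⟩

theorem l78_g : Good g A6 B60 :=
  good_leaf (l := l78) g_ok tab_ok (by decide +kernel) (by decide +kernel) (by decide +kernel)

end Vale.Agent.Lib.P154Q4.I025
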