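import Vale.Agent.Lib.P154Q4.I025.Data

namespace Vale.Agent.Lib.P154Q4.I025

/-- One pair of tetrahedra. -/
def l79 : Leaf := ⟨A6, B65, [7, 7, 23, 23, 23, 23, 7, 7, 23, 23, 23, 23, 13, 13, 13, 13, 14, 14, 19, 42, 19, 42, 42, 42]⟩

theorem l79_g : Good g A6 B65 :=
  good_leaf (l := l79) g_ok tab_ok (by decide +kernel) (by decide +kernel) (by decide +kernel)

end Vale.Agent.Lib.P154Q4.I025
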