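import Vale.Agent.Lib.P154Q4.I025.Data

namespace Vale.Agent.Lib.P154Q4.I025

/-- One pair of tetrahedra. -/
def l8 : Leaf := ⟨A6, B11, [25, 11, 25, 11, 12, 12, 23, 23, 24, 24, 13, 13, 14, 14, 14, 18, 18, 18, 28, 28, 28, 27, 27, 27]⟩

theorem l8_g : Good g A6 B11 :=
  good_leaf (l := l8) g_ok tab_ok (by decide +kernel) (by decide +kernel) (by decide +kernel)

end Vale.Agent.Lib.P154Q4.I025
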