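import Vale.Agent.Lib.P154Q4.I025.Data

namespace Vale.Agent.Lib.P154Q4.I025

/-- One pair of tetrahedra. -/
def l80 : Leaf := ⟨A7, B34, [11, 11, 11, 11, 12, 12, 8, 8, 14, 14, 14, 14, 14, 14, 14, 14, 18, 18, 19, 19, 38, 38, 38, 38]⟩

theorem l80_g : Good g A7 B34 :=
  good_leaf (l := l80) g_ok tab_ok (by decide +kernel) (by decide +kernel) (by decide +kernel)

end Vale.Agent.Lib.P154Q4.I025
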