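import Vale.Agent.Lib.P154Q4.I025.Data

namespace Vale.Agent.Lib.P154Q4.I025

/-- One pair of tetrahedra. -/
def l84 : Leaf := ⟨A12, B33, [25, 11, 52, 44, 41, 41, 7, 7, 13, 13, 14, 39, 8, 15, 14, 14, 19, 19, 18, 18, 38, 38, 38, 38]⟩

theorem l84_g : Good g A12 B33 :=
  good_leaf (l := l84) g_ok tab_ok (by decide +kernel) (by decide +kernel) (by decide +kernel)

end Vale.Agent.Lib.P154Q4.I025
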