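import Vale.Agent.Lib.P154Q4.I025.Data

namespace Vale.Agent.Lib.P154Q4.I025

/-- One pair of tetrahedra. -/
def l87 : Leaf := ⟨A8, B67, [12, 12, 7, 7, 7, 7, 12, 12, 23, 23, 23, 23, 14, 14, 14, 14, 2, 2, 19, 19, 19, 19, 2, 2]⟩

theorem l87_g : Good g A8 B67 :=
  good_leaf (l := l87) g_ok tab_ok (by decide +kernel) (by decide +kernel) (by decide +kernel)

end Vale.Agent.Lib.P154Q4.I025
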