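import Vale.Agent.Lib.P154Q4.I025.Data

namespace Vale.Agent.Lib.P154Q4.I025

/-- One pair of tetrahedra. -/
def l92 : Leaf := ⟨A13, B48, [23, 23, 23, 23, 23, 23, 24, 24, 13, 13, 48, 48, 24, 13, 13, 13, 48, 48, 19, 19, 19, 19, 19, 19]⟩

theorem l92_g : Good g A13 B48 :=
  good_leaf (l := l92) g_ok tab_ok (by decide +kernel) (by decide +kernel) (by decide +kernel)

end Vale.Agent.Lib.P154Q4.I025
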