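import Vale.Agent.Lib.P154Q4.I025.Data

namespace Vale.Agent.Lib.P154Q4.I025

/-- One pair of tetrahedra. -/
def l96 : Leaf := ⟨A20, B49, [7, 7, 7, 23, 41, 8, 7, 7, 13, 14, 13, 39, 13, 14, 13, 14, 19, 19, 14, 14, 14, 39, 19, 19]⟩

theorem l96_g : Good g A20 B49 :=
  good_leaf (l := l96) g_ok tab_ok (by decide +kernel) (by decide +kernel) (by decide +kernel)

end Vale.Agent.Lib.P154Q4.I025
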