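import Vale.Agent.Lib.P154Q4.I025.Data

namespace Vale.Agent.Lib.P154Q4.I025

/-- One pair of tetrahedra. -/
def l97 : Leaf := ⟨A20, B67, [12, 12, 7, 8, 41, 8, 12, 12, 41, 14, 41, 14, 13, 18, 13, 18, 2, 2, 14, 18, 14, 19, 2, 2]⟩

theorem l97_g : Good g A20 B67 :=
  good_leaf (l := l97) g_ok tab_ok (by decide +kernel) (by decide +kernel) (by decide +kernel)

end Vale.Agent.Lib.P154Q4.I025
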