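import Vale.Agent.Lib.P154Q4.I025.Data

namespace Vale.Agent.Lib.P154Q4.I025

/-- One pair of tetrahedra. -/
def l98 : Leaf := ⟨A23, B34, [47, 30, 47, 30, 30, 30, 8, 8, 13, 14, 13, 39, 13, 14, 13, 14, 39, 39, 14, 39, 14, 57, 39, 57]⟩

theorem l98_g : Good g A23 B34 :=
  good_leaf (l := l98) g_ok tab_ok (by decide +kernel) (by decide +kernel) (by decide +kernel)

end Vale.Agent.Lib.P154Q4.I025
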