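import Vale.Agent.Lib.P154Q4.I025.Data

namespace Vale.Agent.Lib.P154Q4.I025

/-- One pair of tetrahedra. -/
def l99 : Leaf := ⟨A23, B49, [7, 7, 7, 7, 7, 7, 23, 23, 24, 14, 24, 39, 13, 14, 13, 14, 39, 39, 14, 39, 14, 39, 39, 39]⟩

theorem l99_g : Good g A23 B49 :=
  good_leaf (l := l99) g_ok tab_ok (by decide +kernel) (by decide +kernel) (by decide +kernel)

end Vale.Agent.Lib.P154Q4.I025
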